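import Vale.Agent.Lib.P154.PChain.BR.T4

set_option linter.all false

namespace Vale.Agent.Lib.P154.PChain.BR.S4

open Vale.Agent.Lib.P154.Chain

set_option maxRecDepth 10000000 in
theorem check_ok : checkSeg g l2 l2 (nat_lit 1) (nat_lit 1) vl Tp Tx Te Tz = true := by
  decide +kernel

end Vale.Agent.Lib.P154.PChain.BR.S4
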